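import Vale.Agent.P133.R2.H369.Pieces
import Vale.Agent.P133.R2.H69.Step
import Vale.Agent.P133.R2.H102.DTwo

/-! P133: density of the certificates (row D). -/

open scoped ComplexOrder

namespace Vale.Agent.P133.R2.H369

open Vale.Agent.P133.H832 Vale.Agent.P133.Statement Vale.Agent.P133.R2.H307

universe u

theorem mem_herS {D : Type u} [NonUnitalCStarAlgebra D] (a w : D) (h : IsSelfAdjoint (a * (w * a))) :
    a * (w * a) ∈ herS a := by
  refine ⟨?_, h⟩
  exact Submodule.le_topologicalClosure _ ⟨w, rfl⟩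

theorem specDense : SpecDense.{u} := by
  intro D _ _ _ hPI a ha δ hδ d hd ρ hρ M hM
  have hDiag : Diag D := diag_of_eltPI D (eltPI_of D hPI)
  obtain ⟨d0, e, c, hd0, hdd, he0, hen, h1, h2, hc1, hc2, hcs, r, hr0, hrn, hrr, her,
    hre⟩ :=
    H69.step ha hδ hd (half_pos hρ)
  have hes : IsSelfAdjoint e := .of_nonneg he0
  have hds : IsSelfAdjoint d0 := hd0.2
  have hrs : star r = r := (IsSelfAdjoint.of_nonneg hr0).star_eq
  have has : star a = a := (IsSelfAdjoint.of_nonneg ha).star_eq
  set ρ₁ : ℝ := ρ / 12 with hρ₁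
  have hρ₁0 : 0 < ρ₁ := by positivity
  set η : ℝ := ρ₁ / 60 with hη
  have hη0 : 0 < η := by positivity
  set τ : ℝ := min (ρ₁ / 8) (ρ₁ / (4 * (M + 1))) with hτ
  have hτ0 : 0 < τ := by positivity
  obtain ⟨m, b, w, s, hb1, hbw, hb2, hb3, hb4⟩ :=
    pieces hes hen hds h1 h2 hc1 hη0
  obtain ⟨X, X', z0, hX, hX', hz0, hzn, hn1, hn2⟩ :=
    H102.dtwo hDiag m b hb1 hb2 s d0 η hη0.le hb3 ρ₁ τ hρ₁0 hτ0
  have hab : ∀ i, b i = a * w i := hbw
  have hz0s : IsSelfAdjoint z0 := by
    rw [hz0]
    refine IsSelfAdjoint.smul (.all _) ?_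
    rw [isSelfAdjoint_iff, star_sum]
    refine Finset.sum_congr rfl fun i _ => ?_
    rw [star_sub, star_mul (b i * X i), star_star, star_mul (b i * X' i), star_star]
  have hz0h : z0 ∈ herS a := by
    refine ⟨?_, hz0s⟩
    rw [hz0]
    refine Submodule.smul_mem _ _ (Submodule.sum_mem _ fun i _ => Submodule.sub_mem _ ?_ ?_)
    · refine Submodule.le_topologicalClosure _ ⟨(w i * X i) * star (w i * X i), ?_⟩
      show a * (((w i * X i) * star (w i * X i)) * a) = _
      rw [hab]
      simp only [star_mul, has, mul_assoc]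
    · refine Submodule.le_topologicalClosure _ ⟨(w i * X' i) * star (w i * X' i), ?_⟩
      show a * (((w i * X' i) * star (w i * X' i)) * a) = _
      rw [hab]
      simp only [star_mul, has, mul_assoc]
  have hzz : d + ((d0 - d) + z0) = d0 + z0 := by abel
  refine ⟨(d0 - d) + z0, (herS a).add_mem ((herS a).sub_mem hd0 hd) hz0h, ?_, m,
    fun i => w i * (X i * r), fun i => w i * (X' i * r), ρ₁ / 2, by positivity, ?_, ?_⟩
  · calc _ ≤ ‖d0 - d‖ + ‖z0‖ := norm_add_le _ _
      _ ≤ ρ / 2 + 6 * ρ₁ := add_le_add hdd hzn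
      _ = ρ := by rw [hρ₁]; ring
  · have e1 : ∑ i, (star (w i * (X i * r)) * (a * a) * (w i * (X i * r)) -
        star (w i * (X' i * r)) * (a * a) * (w i * (X' i * r))) =
        star r * (∑ i, (star (b i * X i) * (b i * X i) - star (b i * X' i) * (b i * X' i))) *
          r := by
      rw [Finset.mul_sum, Finset.sum_mul]
      refine Finset.sum_congr rfl fun i _ => ?_
      rw [hab]
      simp only [star_mul, has, mul_assoc, mul_sub, sub_mul]
    rw [e1]
    have h5 : ‖star r * (∑ i, (star (b i * X i) * (b i * X i) -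
        star (b i * X' i) * (b i * X' i))) * r‖ ≤ 1 * τ * 1 := by
      refine (norm_mul_le _ _).trans ?_
      gcongr
      refine (norm_mul_le _ _).trans ?_
      rw [norm_star]
      gcongr
    have h6 : τ ≤ ρ₁ / (4 * (M + 1)) := min_le_right _ _
    have h7 : M * (ρ₁ / (4 * (M + 1))) < ρ₁ / 2 := by
      rw [mul_div_assoc', div_lt_div_iff₀ (by positivity) (by positivity)]
      nlinarith
    calc _ ≤ M * (ρ₁ / (4 * (M + 1))) := by gcongr; linarith
      _ < _ := h7
  · rw [hzz]
    have hv : star r * ((e * e) * (e * e)) * r = ramp δ a := by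
      rw [hrs, ← hrr]
      simp only [mul_assoc, her]
    have e1 : ∑ i, (star (w i * (X i * r)) * (a * (d0 + z0) * a) * (w i * (X i * r)) -
        star (w i * (X' i * r)) * (a * (d0 + z0) * a) * (w i * (X' i * r))) -
        (4 * (ρ₁ / 2)) • ramp δ a =
        star r * (∑ i, (star (b i * X i) * (d0 + z0) * (b i * X i) -
          star (b i * X' i) * (d0 + z0) * (b i * X' i)) -
        (2 * ρ₁) • ∑ i, (star (b i) * b i) * (star (b i) * b i)) * r := by
      rw [hb4, mul_sub, sub_mul, mul_smul_comm, smul_mul_assoc, hv,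
        Finset.mul_sum, Finset.sum_mul]
      congr 1
      · refine Finset.sum_congr rfl fun i _ => ?_
        rw [hab]
        simp only [star_mul, has, mul_assoc, mul_sub, sub_mul]
      · congr 1; ring
    rw [e1]
    have h5 : ‖star r * (∑ i, (star (b i * X i) * (d0 + z0) * (b i * X i) -
          star (b i * X' i) * (d0 + z0) * (b i * X' i)) -
        (2 * ρ₁) • ∑ i, (star (b i) * b i) * (star (b i) * b i)) * r‖ ≤
        1 * (15 * η + τ) * 1 := by
      refine (norm_mul_le _ _).trans ?_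
      gcongr
      refine (norm_mul_le _ _).trans ?_
      rw [norm_star]
      gcongr
    have h6 : τ ≤ ρ₁ / 8 := min_le_left _ _
    calc _ ≤ 1 * (15 * η + τ) * 1 := h5
      _ ≤ 15 * (ρ₁ / 60) + ρ₁ / 8 := by rw [← hη]; linarith
      _ < ρ₁ / 2 := by linarith

end Vale.Agent.P133.R2.H369
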