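import Mathlib.Analysis.SpecialFunctions.Sqrt
import Mathlib.Tactic

/-! P133: a partition with two norms. -/

namespace Vale.Agent.P133.R2.H369

theorem two_terms (φ : ℝ → ℝ) (hφ : ∀ y, 1 ≤ |y| → φ y = 0) {N : ℕ} {y : ℝ} (h0 : 0 ≤ y)
    (h1 : y < 2 * N) : ∃ f : ℝ, 0 ≤ f ∧ f ≤ 1 ∧
      ∑ i : Fin (2 * N + 1), φ (y - (i : ℕ)) = φ f + φ (f - 1) := by
  have hj : ⌊y⌋₊ < 2 * N := by
    rw [Nat.floor_lt h0]; exact_mod_cast h1
  have hf0 := Nat.floor_le h0
  have hf1 := Nat.lt_floor_add_one y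
  refine ⟨y - ⌊y⌋₊, by linarith, by linarith, ?_⟩
  rw [Fin.sum_univ_eq_sum_range (fun i => φ (y - (i : ℕ))) (2 * N + 1)]
  have hs : ({⌊y⌋₊, ⌊y⌋₊ + 1} : Finset ℕ) ⊆ Finset.range (2 * N + 1) := by
    intro i hi
    simp only [Finset.mem_insert, Finset.mem_singleton] at hi
    rw [Finset.mem_range]; omega
  rw [← Finset.sum_subset hs, Finset.sum_pair (by omega)]
  · push_cast
    congr 2
    ring
  · intro i _ hi
    simp only [Finset.mem_insert, Finset.mem_singleton, not_or] at hi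
    apply hφ
    rcases lt_or_gt_of_ne hi.1 with h | h
    · have : (i : ℝ) + 1 ≤ ⌊y⌋₊ := by exact_mod_cast h
      rw [le_abs]; left; linarith
    · have h2 : ⌊y⌋₊ + 2 ≤ i := by omega
      have : (⌊y⌋₊ : ℝ) + 2 ≤ i := by exact_mod_cast h2
      rw [le_abs]; right; linarith

/-- the hat function -/
noncomputable def hat (y : ℝ) : ℝ := max (1 - |y|) 0

theorem hat_nonneg (y : ℝ) : 0 ≤ hat y := le_max_right _ _

theorem hat_le (y : ℝ) : hat y ≤ 1 := by
  rw [hat]; exact max_le (by linarith [abs_nonneg y]) zero_le_one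

theorem hat_zero {y : ℝ} (h : 1 ≤ |y|) : hat y = 0 := by
  rw [hat]; exact max_eq_right (by linarith)

theorem partition_exists (R η : ℝ) (hη : 0 < η) :
    ∃ (m : ℕ) (F : Fin m → ℝ → ℝ) (s : Fin m → ℝ), (∀ i, Continuous (F i)) ∧
      (∀ i t, 0 ≤ F i t ∧ F i t ≤ 1) ∧ (∀ i t, F i t ≠ 0 → |t - s i| ≤ η) ∧
      (∀ t, |t| ≤ R → ∑ i, F i t * F i t * (F i t * F i t) = 1) ∧
      (∀ t, |t| ≤ R → ∑ i, F i t * F i t ≤ 2) := by
  obtain ⟨N, hN⟩ := exists_nat_gt (R / η)
  have hR : R < N * η := by rwa [div_lt_iff₀ hη] at hN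
  refine ⟨2 * N + 1, fun i t => Real.sqrt (Real.sqrt (hat (t / η + N - (i : ℕ)))),
    fun i => (((i : ℕ) : ℝ) - N) * η, ?_, ?_, ?_, ?_, ?_⟩
  · intro i
    have : Continuous hat := by unfold hat; fun_prop
    fun_prop
  · intro i t
    refine ⟨Real.sqrt_nonneg _, ?_⟩
    exact Real.sqrt_le_one.2 (Real.sqrt_le_one.2 (hat_le _))
  · intro i t h
    by_contra hcon
    push Not at hcon
    apply h
    have h1 : 1 ≤ |t / η + N - (i : ℕ)| := by
      have h2 : t - (((i : ℕ) : ℝ) - N) * η = (t / η + N - (i : ℕ)) * η := by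
        field_simp; ring
      rw [h2, abs_mul, abs_of_pos hη] at hcon
      by_contra h3
      push Not at h3
      nlinarith
    show Real.sqrt (Real.sqrt (hat (t / η + N - (i : ℕ)))) = 0
    rw [hat_zero h1, Real.sqrt_zero, Real.sqrt_zero]
  · intro t ht
    have hy := abs_le.1 ht
    have h0 : 0 ≤ t / η + N := by
      have : -(N : ℝ) ≤ t / η := by rw [le_div_iff₀ hη]; linarith
      linarith
    have h1 : t / η + N < 2 * N := by
      have : t / η < N := by rw [div_lt_iff₀ hη]; linarith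
      linarith
    have hφ : ∀ y : ℝ, Real.sqrt (Real.sqrt (hat y)) * Real.sqrt (Real.sqrt (hat y)) *
        (Real.sqrt (Real.sqrt (hat y)) * Real.sqrt (Real.sqrt (hat y))) = hat y := by
      intro y
      rw [Real.mul_self_sqrt (Real.sqrt_nonneg _), Real.mul_self_sqrt (hat_nonneg _)]
    obtain ⟨f, hf0, hf1, hf⟩ := two_terms hat (fun y hy => hat_zero hy) h0 h1
    simp only [hφ]
    rw [hf, hat, hat, abs_of_nonneg hf0, abs_of_nonpos (by linarith), max_eq_left (by linarith),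
      max_eq_left (by linarith)]
    ring
  · intro t ht
    have hy := abs_le.1 ht
    have h0 : 0 ≤ t / η + N := by
      have : -(N : ℝ) ≤ t / η := by rw [le_div_iff₀ hη]; linarith
      linarith
    have h1 : t / η + N < 2 * N := by
      have : t / η < N := by rw [div_lt_iff₀ hη]; linarith
      linarith
    have hφ : ∀ y : ℝ, Real.sqrt (Real.sqrt (hat y)) * Real.sqrt (Real.sqrt (hat y)) =
        Real.sqrt (hat y) := fun y => Real.mul_self_sqrt (Real.sqrt_nonneg _)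
    obtain ⟨f, hf0, hf1, hf⟩ := two_terms (fun y => Real.sqrt (hat y))
      (fun y hy => by show Real.sqrt (hat y) = 0; rw [hat_zero hy, Real.sqrt_zero]) h0 h1
    simp only [hφ]
    rw [hf]
    have h2 : Real.sqrt (hat f) ≤ 1 := Real.sqrt_le_one.2 (hat_le _)
    have h3 : Real.sqrt (hat (f - 1)) ≤ 1 := Real.sqrt_le_one.2 (hat_le _)
    linarith

end Vale.Agent.P133.R2.H369
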