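import Mathlib.Analysis.CStarAlgebra.ContinuousFunctionalCalculus.Order
import Mathlib.Analysis.CStarAlgebra.ContinuousFunctionalCalculus.Range
import Mathlib.Analysis.CStarAlgebra.ContinuousFunctionalCalculus.Isometric
import Mathlib.Tactic

/-! P133: calculus of an element with a local unit. -/

open scoped ComplexOrder

namespace Vale.Agent.P133.R2.H369

universe u

section

variable {D : Type u} [NonUnitalCStarAlgebra D]

/-- the elements with the local unit `e` -/
def Loc (e : D) (he : IsSelfAdjoint e) : NonUnitalStarSubalgebra ℝ D where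
  carrier := {y | e * y = y ∧ y * e = y}
  add_mem' := by
    rintro x y ⟨h1, h2⟩ ⟨h3, h4⟩
    exact ⟨by rw [mul_add, h1, h3], by rw [add_mul, h2, h4]⟩
  zero_mem' := ⟨mul_zero _, zero_mul _⟩
  mul_mem' := by
    rintro x y ⟨h1, h2⟩ ⟨h3, h4⟩
    exact ⟨by rw [← mul_assoc, h1], by rw [mul_assoc, h4]⟩
  smul_mem' := by
    rintro r x ⟨h1, h2⟩
    exact ⟨by rw [mul_smul_comm, h1], by rw [smul_mul_assoc, h2]⟩
  star_mem' := by
    rintro x ⟨h1, h2⟩
    constructor
    · have := congrArg star h2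
      rwa [star_mul, he.star_eq] at this
    · have := congrArg star h1
      rwa [star_mul, he.star_eq] at this

theorem loc_cfc {e x : D} (he : IsSelfAdjoint e) (h1 : e * x = x) (h2 : x * e = x)
    (h : ℝ → ℝ) : e * cfcₙ h x = cfcₙ h x ∧ cfcₙ h x * e = cfcₙ h x := by
  have hc : IsClosed (Loc e he : Set D) := by
    have : (Loc e he : Set D) = {y | e * y = y} ∩ {y | y * e = y} := rfl
    rw [this]
    exact (isClosed_eq (by fun_prop) (by fun_prop)).inter
      (isClosed_eq (by fun_prop) (by fun_prop))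
  have hx : x ∈ Loc e he := ⟨h1, h2⟩
  exact NonUnitalStarSubalgebra.topologicalClosure_minimal _
    (by simpa using hx) hc (cfcₙ_mem_elemental h x)

/-- `F (0) e + (F - F (0)) (x)` -/
noncomputable def Phi (e x : D) (F : ℝ → ℝ) : D := F 0 • e + cfcₙ (fun s => F s - F 0) x

theorem Phi_star {e x : D} (he : IsSelfAdjoint e) (F : ℝ → ℝ) :
    star (Phi e x F) = Phi e x F := by
  rw [Phi, star_add, star_smul, star_trivial, he.star_eq,
    (cfcₙ_predicate (p := IsSelfAdjoint) _ x).star_eq]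

theorem Phi_mul {e e' x : D} (he : IsSelfAdjoint e) (he' : IsSelfAdjoint e')
    (h1 : e * x = x) (h2 : x * e = x) (h1' : e' * x = x) (h2' : x * e' = x) {F G : ℝ → ℝ}
    (hF : Continuous F) (hG : Continuous G) :
    Phi e x F * Phi e' x G = Phi (e * e') x (fun s => F s * G s) := by
  have e1 := (loc_cfc he h1 h2 (fun s => G s - G 0)).1
  have e2 := (loc_cfc he' h1' h2' (fun s => F s - F 0)).2
  have e3 : cfcₙ (fun s => F s * G s - F 0 * G 0) x = F 0 • cfcₙ (fun s => G s - G 0) x +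
      G 0 • cfcₙ (fun s => F s - F 0) x +
      cfcₙ (fun s => F s - F 0) x * cfcₙ (fun s => G s - G 0) x := by
    have c1 : ContinuousOn (fun s => F s - F 0) (quasispectrum ℝ x) := by fun_prop
    have c2 : ContinuousOn (fun s => G s - G 0) (quasispectrum ℝ x) := by fun_prop
    rw [← cfcₙ_smul (F 0) _ x c2 (by simp), ← cfcₙ_smul (G 0) _ x c1 (by simp),
      ← cfcₙ_mul _ _ x c1 (by simp) c2 (by simp),
      ← cfcₙ_add (fun s => F 0 • (G s - G 0)) (fun s => G 0 • (F s - F 0)) x
        (Continuous.continuousOn (by fun_prop)) (by simp)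
        (Continuous.continuousOn (by fun_prop)) (by simp),
      ← cfcₙ_add (fun s => F 0 • (G s - G 0) + G 0 • (F s - F 0))
        (fun s => (F s - F 0) * (G s - G 0)) x
        (Continuous.continuousOn (by fun_prop)) (by simp)
        (Continuous.continuousOn (by fun_prop)) (by simp)]
    congr 1
    funext s
    simp only [smul_eq_mul]
    ring
  rw [Phi, Phi, Phi, e3, add_mul, mul_add, mul_add, smul_mul_smul_comm, smul_mul_assoc, e1,
    mul_smul_comm, e2]
  abel

theorem quasi_le {x : D} (hx : IsSelfAdjoint x) {t : ℝ} (ht : t ∈ quasispectrum ℝ x) :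
    |t| ≤ ‖x‖ := by
  have := norm_apply_le_norm_cfcₙ (fun x : ℝ => x) x ht
  rwa [cfcₙ_id' ℝ x, Real.norm_eq_abs] at this

theorem Phi_norm {e x : D} (hx : IsSelfAdjoint x) (hen : ‖e‖ ≤ 1) {F : ℝ → ℝ} {η : ℝ}
    (hF : ∀ s, |s| ≤ ‖x‖ → |F s| ≤ η) : ‖Phi e x F‖ ≤ 3 * η := by
  have h0 : |F 0| ≤ η := hF 0 (by rw [abs_zero]; exact norm_nonneg _)
  have hη : 0 ≤ η := (abs_nonneg _).trans h0
  have h1 : ‖F 0 • e‖ ≤ η := by
    rw [norm_smul, Real.norm_eq_abs]
    nlinarith [norm_nonneg e]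
  have h2 : ‖cfcₙ (fun s => F s - F 0) x‖ ≤ 2 * η := by
    refine norm_cfcₙ_le fun t ht => ?_
    have h3 := hF t (quasi_le hx ht)
    rw [Real.norm_eq_abs]
    calc _ ≤ |F t| + |F 0| := abs_sub _ _
      _ ≤ 2 * η := by linarith
  calc _ ≤ ‖F 0 • e‖ + ‖cfcₙ (fun s => F s - F 0) x‖ := norm_add_le _ _
    _ ≤ 3 * η := by linarith

theorem Phi_add {e x : D} {F G : ℝ → ℝ} (hF : Continuous F) (hG : Continuous G) :
    Phi e x (fun s => F s + G s) = Phi e x F + Phi e x G := by
  have e3 : cfcₙ (fun s => F s + G s - (F 0 + G 0)) x = cfcₙ (fun s => F s - F 0) x +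
      cfcₙ (fun s => G s - G 0) x := by
    rw [← cfcₙ_add (fun s => F s - F 0) (fun s => G s - G 0) x
        (Continuous.continuousOn (by fun_prop)) (by simp)
        (Continuous.continuousOn (by fun_prop)) (by simp)]
    congr 1
    funext s
    ring
  rw [Phi, Phi, Phi, e3, add_smul]
  abel

theorem Phi_smul {e x : D} (c : ℝ) {F : ℝ → ℝ} (hF : Continuous F) :
    Phi e x (fun s => c * F s) = c • Phi e x F := by
  have e3 : cfcₙ (fun s => c * F s - c * F 0) x = c • cfcₙ (fun s => F s - F 0) x := by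
    rw [← cfcₙ_smul c _ x (by fun_prop) (by simp)]
    congr 1
    funext s
    simp only [smul_eq_mul]
    ring
  rw [Phi, Phi, e3, smul_add, mul_smul]

theorem Phi_zero (e x : D) : Phi e x (fun _ => 0) = 0 := by
  rw [Phi, zero_smul, zero_add]
  have : (fun _ : ℝ => (0 : ℝ) - 0) = fun _ => 0 := by funext; simp
  rw [this, cfcₙ_const_zero]

theorem Phi_sum {e x : D} {m : ℕ} (F : Fin m → ℝ → ℝ) (hF : ∀ i, Continuous (F i)) :
    ∑ i, Phi e x (F i) = Phi e x (fun s => ∑ i, F i s) := by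
  induction m with
  | zero => simp only [Finset.univ_eq_empty, Finset.sum_empty, Phi_zero]
  | succ m ih =>
    simp only [Fin.sum_univ_succ]
    rw [ih _ fun i => hF _, ← Phi_add (hF 0) (continuous_finsetSum _ fun i _ => hF _)]

theorem Phi_one {e x : D} (hx : IsSelfAdjoint x) {F : ℝ → ℝ}
    (hF : ∀ s, |s| ≤ ‖x‖ → F s = 1) : Phi e x F = e := by
  have h0 : F 0 = 1 := hF 0 (by rw [abs_zero]; exact norm_nonneg _)
  have h1 : cfcₙ (fun s => F s - F 0) x = 0 := by
    rw [← cfcₙ_const_zero ℝ x]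
    refine cfcₙ_congr fun t ht => ?_
    show F t - F 0 = 0
    rw [h0, hF t (quasi_le hx ht), sub_self]
  rw [Phi, h1, h0, one_smul, add_zero]

theorem Phi_id {e x : D} (hx : IsSelfAdjoint x) : Phi e x (fun s => s) = x := by
  rw [Phi, zero_smul, zero_add]
  have : (fun s : ℝ => s - 0) = fun s => s := by funext; simp
  rw [this, cfcₙ_id' ℝ x]

end

end Vale.Agent.P133.R2.H369
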