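import Vale.Agent.P133.R2.H369.Phi
import Vale.Agent.P133.R2.H369.Part

/-! P133: spectral pieces of an element with a local unit. -/

open scoped ComplexOrder

namespace Vale.Agent.P133.R2.H369

universe u

section

variable {D : Type u} [NonUnitalCStarAlgebra D]

theorem Phi_congr {e x : D} (hx : IsSelfAdjoint x) {F G : ℝ → ℝ}
    (h : ∀ s, |s| ≤ ‖x‖ → F s = G s) : Phi e x F = Phi e x G := by
  have h0 : F 0 = G 0 := h 0 (by rw [abs_zero]; exact norm_nonneg _)
  have h1 : cfcₙ (fun s => F s - F 0) x = cfcₙ (fun s => G s - G 0) x := by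
    refine cfcₙ_congr fun t ht => ?_
    show F t - F 0 = G t - G 0
    rw [h0, h t (quasi_le hx ht)]
  rw [Phi, Phi, h1, h0]

theorem Phi_indep (e e' x : D) {F : ℝ → ℝ} (h : F 0 = 0) : Phi e x F = Phi e' x F := by
  rw [Phi, Phi, h, zero_smul, zero_smul]

theorem Phi_const (e x : D) (M : ℝ) : Phi e x (fun _ => M) = M • e := by
  rw [Phi]
  have : (fun _ : ℝ => M - M) = fun _ => 0 := by funext; simp
  rw [this, cfcₙ_const_zero, add_zero]

variable [PartialOrder D] [StarOrderedRing D]

theorem Phi_nonneg {e x : D} (he : IsSelfAdjoint e) (hx : IsSelfAdjoint x)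
    (h1 : e * x = x) (h2 : x * e = x) {G : ℝ → ℝ}
    (hG : Continuous G) (h : ∀ s, |s| ≤ ‖x‖ → 0 ≤ G s) : 0 ≤ Phi (e * e) x G := by
  have e1 : Phi (e * e) x G = star (Phi e x (fun s => Real.sqrt (G s))) *
      Phi e x (fun s => Real.sqrt (G s)) := by
    rw [Phi_star he, Phi_mul he he h1 h2 h1 h2 (by fun_prop) (by fun_prop)]
    exact Phi_congr hx fun s hs => (Real.mul_self_sqrt (h s hs)).symm
  rw [e1]
  exact star_mul_self_nonneg _

theorem Phi_le {e x : D} (he : IsSelfAdjoint e) (hx : IsSelfAdjoint x)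
    (h1 : e * x = x) (h2 : x * e = x) {G : ℝ → ℝ}
    (hG : Continuous G) {M : ℝ} (h : ∀ s, |s| ≤ ‖x‖ → G s ≤ M) :
    Phi (e * e) x G ≤ M • (e * e) := by
  have e1 : M • (e * e) = Phi (e * e) x G + Phi (e * e) x (fun s => M - G s) := by
    rw [← Phi_add hG (by fun_prop), ← Phi_const (e * e) x M]
    congr 1
    funext s
    ring
  rw [e1]
  exact le_add_of_nonneg_right (Phi_nonneg he hx h1 h2 (by fun_prop) fun s hs =>
    sub_nonneg.2 (h s hs))

theorem Phi_norm_le {e x : D} (he : IsSelfAdjoint e) (hen : ‖e‖ ≤ 1) (hx : IsSelfAdjoint x)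
    (h1 : e * x = x) (h2 : x * e = x) {G : ℝ → ℝ}
    (hG : Continuous G) {M : ℝ} (hM : 0 ≤ M) (h0 : ∀ s, |s| ≤ ‖x‖ → 0 ≤ G s)
    (h : ∀ s, |s| ≤ ‖x‖ → G s ≤ M) : ‖Phi (e * e) x G‖ ≤ M := by
  refine (CStarAlgebra.norm_le_norm_of_nonneg_of_le (Phi_nonneg he hx h1 h2 hG h0)
    (Phi_le he hx h1 h2 hG h)).trans ?_
  rw [norm_smul, Real.norm_of_nonneg hM]
  have : ‖e * e‖ ≤ 1 := (norm_mul_le _ _).trans (by nlinarith [norm_nonneg e])
  nlinarith

theorem pieces {a c e x : D} (he : IsSelfAdjoint e) (hen : ‖e‖ ≤ 1) (hx : IsSelfAdjoint x)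
    (h1 : e * x = x) (h2 : x * e = x) (hc : e = a * c) {η : ℝ} (hη : 0 < η) :
    ∃ (m : ℕ) (b w : Fin m → D) (s : Fin m → ℝ), (∀ i, ‖b i‖ ≤ 1) ∧ (∀ i, b i = a * w i) ∧
      ‖∑ i, star (b i) * b i‖ ≤ 2 ∧
      (∀ i, -(η • (star (b i) * b i)) ≤ star (b i) * x * b i - s i • (star (b i) * b i) ∧
        star (b i) * x * b i - s i • (star (b i) * b i) ≤ η • (star (b i) * b i)) ∧
      ∑ i, (star (b i) * b i) * (star (b i) * b i) = (e * e) * (e * e) := by
  obtain ⟨m, F, s, hF, hF1, hF2, hF3, hF4⟩ := partition_exists ‖x‖ η hη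
  have hee : IsSelfAdjoint (e * e) := by
    rw [isSelfAdjoint_iff, star_mul, he.star_eq]
  have g1 : (e * e) * x = x := by rw [mul_assoc, h1, h1]
  have g2 : x * (e * e) = x := by rw [← mul_assoc, h2, h2]
  have hbb : ∀ i, star (Phi e x (F i)) * Phi e x (F i) =
      Phi (e * e) x (fun t => F i t * F i t) := fun i => by
    rw [Phi_star he, Phi_mul he he h1 h2 h1 h2 (hF i) (hF i)]
  refine ⟨m, fun i => Phi e x (F i), fun i => F i 0 • c + c * cfcₙ (fun t => F i t - F i 0) x,
    s, ?_, ?_, ?_, ?_, ?_⟩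
  · intro i
    have h3 : ‖star (Phi e x (F i)) * Phi e x (F i)‖ ≤ 1 := by
      rw [hbb]
      refine Phi_norm_le he hen hx h1 h2 (by have := hF i; fun_prop) zero_le_one
        (fun t _ => mul_nonneg (hF1 i t).1 (hF1 i t).1) fun t _ => ?_
      nlinarith [hF1 i t]
    rw [CStarRing.norm_star_mul_self] at h3
    by_contra hcon
    push Not at hcon
    nlinarith
  · intro i
    show Phi e x (F i) = _
    rw [Phi, mul_add, mul_smul_comm, ← hc, ← mul_assoc, ← hc, (loc_cfc he h1 h2 _).1]
  · simp only [hbb]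
    rw [Phi_sum _ fun i => by have := hF i; fun_prop]
    refine Phi_norm_le he hen hx h1 h2 (continuous_finsetSum _ fun i _ => by
      have := hF i; fun_prop) zero_le_two (fun t _ => Finset.sum_nonneg fun i _ =>
        mul_nonneg (hF1 i t).1 (hF1 i t).1) fun t ht => hF4 t ht
  · intro i
    have hc1 : Continuous (fun t => F i t * F i t) := by have := hF i; fun_prop
    have hc2 : Continuous (fun t => t * (F i t * F i t)) := by fun_prop
    have e1 : star (Phi e x (F i)) * x * Phi e x (F i) =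
        Phi (e * e) x (fun t => t * (F i t * F i t)) := by
      rw [Phi_star he]
      have e2 : Phi e x (F i) * x = Phi (e * e) x (fun t => F i t * t) := by
        have h5 := Phi_mul (x := x) he he h1 h2 h1 h2 (hF i) (continuous_id' (X := ℝ))
        rw [Phi_id hx] at h5
        exact h5
      rw [e2, Phi_mul hee he g1 g2 h1 h2 (by have := hF i; fun_prop) (hF i)]
      rw [Phi_indep (e * e * e) (e * e) x (by simp)]
      congr 1
      funext t
      ring
    have key : ∀ t, |t - s i| * (F i t * F i t) ≤ η * (F i t * F i t) := by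
      intro t
      by_cases h0 : F i t = 0
      · rw [h0]; simp
      · exact mul_le_mul_of_nonneg_right (hF2 i t h0) (mul_self_nonneg _)
    simp only [hbb]
    rw [e1]
    constructor
    · rw [← sub_nonneg]
      have e2 : Phi (e * e) x (fun t => t * (F i t * F i t)) -
          s i • Phi (e * e) x (fun t => F i t * F i t) -
          -(η • Phi (e * e) x (fun t => F i t * F i t)) =
          Phi (e * e) x (fun t => t * (F i t * F i t) + ((η - s i) * (F i t * F i t))) := by
        rw [Phi_add hc2 (by fun_prop), Phi_smul _ hc1, sub_smul]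
        abel
      rw [e2]
      refine Phi_nonneg he hx h1 h2 (by fun_prop) fun t _ => ?_
      have h3 := key t
      have h4 := neg_abs_le (t - s i)
      nlinarith [mul_self_nonneg (F i t)]
    · rw [← sub_nonneg]
      have e2 : η • Phi (e * e) x (fun t => F i t * F i t) -
          (Phi (e * e) x (fun t => t * (F i t * F i t)) -
          s i • Phi (e * e) x (fun t => F i t * F i t)) =
          Phi (e * e) x (fun t => (-1) * (t * (F i t * F i t)) +
            ((η + s i) * (F i t * F i t))) := by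
        rw [Phi_add (by fun_prop) (by fun_prop), Phi_smul _ hc2, Phi_smul _ hc1, add_smul,
          neg_one_smul]
        abel
      rw [e2]
      refine Phi_nonneg he hx h1 h2 (by fun_prop) fun t _ => ?_
      have h3 := key t
      have h4 := le_abs_self (t - s i)
      nlinarith [mul_self_nonneg (F i t)]
  · simp only [hbb]
    have e1 : ∀ i, Phi (e * e) x (fun t => F i t * F i t) *
        Phi (e * e) x (fun t => F i t * F i t) =
        Phi ((e * e) * (e * e)) x (fun t => F i t * F i t * (F i t * F i t)) := fun i =>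
      Phi_mul hee hee g1 g2 g1 g2 (by have := hF i; fun_prop) (by have := hF i; fun_prop)
    simp only [e1]
    rw [Phi_sum _ fun i => by have := hF i; fun_prop]
    exact Phi_one hx fun t ht => hF3 t ht

end

end Vale.Agent.P133.R2.H369
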